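import Vale.Agent.P021.Bdl.B3

/-!
# P021: the two functionals with explicit constants
-/

set_option linter.all false

open Polynomial

namespace Vale.Agent.P021.H476

open Vale.Agent.P021.Det

theorem abs_Lam_le (l : List ℂ) (x0 : ℝ) (hh : l.head? = some (x0 : ℂ))
    (hl : l.getLast? = some (-1 + 2 * Complex.I)) (hs : ∀ v ∈ l, |v.re| < 5)
    (S : Set ℂ) (hS : PathIn S l) (m : ℕ) (F : ℝ[X]) (M : ℝ)
    (hM : ∀ s ∈ S, ‖ev F s‖ ≤ M * ‖tau s‖ ^ m) :
    |Lam Real.pi m F| ≤ (2 * Path_len l) * M := by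
  rw [Path_Lam_pi_eq l x0 hh hl hs m F]
  have h1 := Path_norm_pathI_le (fun s => ∑ j ∈ Finset.range (F.natDegree + 1),
        ((F.coeff j : ℝ) : ℂ) * tau s ^ ((j : ℤ) - m)) M S l hS hs ?_
  · have h2 := Complex.abs_im_le_norm (pathI (fun s => ∑ j ∈ Finset.range (F.natDegree + 1),
        ((F.coeff j : ℝ) : ℂ) * tau s ^ ((j : ℤ) - m)) l)
    rw [abs_mul, abs_two]
    linarith
  · intro s hsS hs5
    have h0 := Path_tau_ne hs5
    have h3 : ∑ j ∈ Finset.range (F.natDegree + 1), ((F.coeff j : ℝ) : ℂ) * tau s ^ ((j : ℤ) - m)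
        = ev F s * (tau s ^ m)⁻¹ := by
      unfold ev
      rw [Polynomial.aeval_eq_sum_range, Finset.sum_mul]
      apply Finset.sum_congr rfl
      intro j _
      rw [zpow_sub₀ h0, zpow_natCast, zpow_natCast, Complex.real_smul]
      rw [div_eq_mul_inv]
      ring
    rw [h3, norm_mul, norm_inv, norm_pow]
    rw [← div_eq_mul_inv, div_le_iff₀ (pow_pos (norm_pos_iff.2 h0) m)]
    exact hM s hsS

theorem abs_Bet_poly_le (l : List ℂ) (x1 x2 : ℝ) (hh : l.head? = some (x2 : ℂ))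
    (hl : l.getLast? = some (x1 : ℂ)) (h2 : 5 < x2) (h1 : -5 < x1) (h1' : x1 < 5)
    (T : Set ℂ) (hT : PathIn T l)
    (hpos : PathIn {s : ℂ | 0 ≤ s.im ∧ s ≠ 5 ∧ s ≠ -5} l) (m : ℕ) (F : ℝ[X]) (M : ℝ)
    (hM : ∀ s ∈ T, ‖ev F s‖ ≤ M * ‖tau s‖ ^ m) :
    |Bet m F| ≤ (Path_len l / (2 * Real.pi)) * M := by
  have hpos' : PathIn BP_U l := hpos
  have e1 := BP_Bet_eq l x1 x2 hh hl h2 h1 h1' hpos' m F
  have e2 := BP_norm_pathI_le (fun s => ∑ j ∈ Finset.range (F.natDegree + 1),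
        ((F.coeff j : ℝ) : ℂ) * tau s ^ ((j : ℤ) - m)) M (T ∩ BP_U) l
        (BP_PathIn_inter l hT hpos') ?_
  · have e3 := Complex.abs_im_le_norm (pathI (fun s => ∑ j ∈ Finset.range (F.natDegree + 1),
        ((F.coeff j : ℝ) : ℂ) * tau s ^ ((j : ℤ) - m)) l)
    have e4 : |(2 * Real.pi) * Bet m F| ≤ Path_len l * M := by
      rw [e1, abs_neg]
      exact e3.trans e2
    rw [abs_mul, abs_of_pos (by positivity)] at e4
    have hp : 0 < 2 * Real.pi := by positivity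
    rw [div_mul_eq_mul_div, le_div_iff₀ hp]
    linarith
  · intro s hs
    have h0 := BP_tau_ne hs.2
    have h3 : ∑ j ∈ Finset.range (F.natDegree + 1), ((F.coeff j : ℝ) : ℂ) * tau s ^ ((j : ℤ) - m)
        = ev F s * (tau s ^ m)⁻¹ := by
      unfold ev
      rw [Polynomial.aeval_eq_sum_range, Finset.sum_mul]
      apply Finset.sum_congr rfl
      intro j _
      rw [zpow_sub₀ h0, zpow_natCast, zpow_natCast, Complex.real_smul]
      rw [div_eq_mul_inv]
      ring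
    simp only [h3]
    rw [norm_mul, norm_inv, norm_pow]
    rw [← div_eq_mul_inv, div_le_iff₀ (pow_pos (norm_pos_iff.2 h0) m)]
    exact hM s hs.1

/-- the point `s ^ 2 - 25` on a segment is a convex combination of three control points -/
theorem tau_segment {u v : ℂ} {B : ℝ} (h1 : ‖u ^ 2 - 25‖ ≤ B) (h2 : ‖u * v - 25‖ ≤ B)
    (h3 : ‖v ^ 2 - 25‖ ≤ B) : ∀ s ∈ segment ℝ u v, ‖tau s‖ ≤ B := by
  rintro s ⟨a, b, ha, hb, hab, rfl⟩
  have e1 : tau (a • u + b • v) = ((a ^ 2 : ℝ) : ℂ) * (u ^ 2 - 25) +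
      ((2 * (a * b) : ℝ) : ℂ) * (u * v - 25) + ((b ^ 2 : ℝ) : ℂ) * (v ^ 2 - 25) := by
    have hab' : (a : ℂ) + (b : ℂ) = 1 := by exact_mod_cast hab
    unfold tau
    rw [Complex.real_smul, Complex.real_smul]
    push_cast
    linear_combination (-25 * ((a : ℂ) + b + 1)) * (-1 : ℂ) * hab'
  rw [e1]
  have e2 : a ^ 2 + 2 * (a * b) + b ^ 2 = 1 := by
    have : (a + b) ^ 2 = 1 := by rw [hab]; norm_num
    linarith
  have ha2 : 0 ≤ a ^ 2 := sq_nonneg a
  have hb2 : 0 ≤ b ^ 2 := sq_nonneg b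
  have hab2 : 0 ≤ 2 * (a * b) := by positivity
  calc ‖((a ^ 2 : ℝ) : ℂ) * (u ^ 2 - 25) + ((2 * (a * b) : ℝ) : ℂ) * (u * v - 25) +
        ((b ^ 2 : ℝ) : ℂ) * (v ^ 2 - 25)‖
      ≤ ‖((a ^ 2 : ℝ) : ℂ) * (u ^ 2 - 25)‖ + ‖((2 * (a * b) : ℝ) : ℂ) * (u * v - 25)‖ +
        ‖((b ^ 2 : ℝ) : ℂ) * (v ^ 2 - 25)‖ := norm_add₃_le
    _ = a ^ 2 * ‖u ^ 2 - 25‖ + 2 * (a * b) * ‖u * v - 25‖ + b ^ 2 * ‖v ^ 2 - 25‖ := by
        rw [norm_mul, norm_mul, norm_mul, Complex.norm_real, Complex.norm_real,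
          Complex.norm_real, Real.norm_of_nonneg ha2, Real.norm_of_nonneg hab2,
          Real.norm_of_nonneg hb2]
    _ ≤ a ^ 2 * B + 2 * (a * b) * B + b ^ 2 * B := by
        have i1 := mul_le_mul_of_nonneg_left h1 ha2
        have i2 := mul_le_mul_of_nonneg_left h2 hab2
        have i3 := mul_le_mul_of_nonneg_left h3 hb2
        linarith
    _ = B := by
        rw [← add_mul, ← add_mul, e2, one_mul]

/-- norm from real and imaginary part -/
theorem norm_le_of {z : ℂ} {B : ℝ} (hB : 0 ≤ B) (h : z.re ^ 2 + z.im ^ 2 ≤ B ^ 2) : ‖z‖ ≤ B := by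
  apply le_of_sq_le_sq _ hB
  rw [← Complex.normSq_eq_norm_sq, Complex.normSq_apply]
  linarith

theorem tau_S1 : ∀ s ∈ S1, ‖tau s‖ ≤ 189 / 4 := by
  rintro s (hs | hs)
  · refine tau_segment ?_ ?_ ?_ s hs <;> refine norm_le_of (by norm_num) ?_ <;>
      simp [pnt10, pow_two] <;> norm_num
  · refine tau_segment ?_ ?_ ?_ s hs <;> refine norm_le_of (by norm_num) ?_ <;>
      simp [pnt10, pow_two] <;> norm_num

theorem tau_T1 : ∀ s ∈ T1, ‖tau s‖ ≤ 189 / 4 := by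
  rintro s (hs | hs | hs)
  · refine tau_segment ?_ ?_ ?_ s hs <;> refine norm_le_of (by norm_num) ?_ <;>
      simp [pnt10, pow_two] <;> norm_num
  · refine tau_segment ?_ ?_ ?_ s hs <;> refine norm_le_of (by norm_num) ?_ <;>
      simp [pnt10, pow_two] <;> norm_num
  · refine tau_segment ?_ ?_ ?_ s hs <;> refine norm_le_of (by norm_num) ?_ <;>
      simp [pnt10, pow_two] <;> norm_num

theorem len1 : Path_len l1 ≤ 1331 / 1024 + 12210 / 10000 := by
  have e1 : ‖pnt10 (0, 1331) - pnt10 (0, 0)‖ ≤ 1331 / 1024 := by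
    refine norm_le_of (by norm_num) ?_
    simp [pnt10] <;> norm_num
  have e2 : ‖pnt10 (-1024, 2048) - pnt10 (0, 1331)‖ ≤ 12210 / 10000 := by
    refine norm_le_of (by norm_num) ?_
    simp [pnt10] <;> norm_num
  unfold l1
  simp only [Path_len]
  linarith

theorem len2 : Path_len l2 ≤ 26926 / 10000 + 49245 / 10000 + 67269 / 10000 := by
  have e1 : ‖pnt10 (7680, 2560) - pnt10 (8704, 0)‖ ≤ 26926 / 10000 := by
    refine norm_le_of (by norm_num) ?_
    simp [pnt10] <;> norm_num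
  have e2 : ‖pnt10 (3072, 4608) - pnt10 (7680, 2560)‖ ≤ 49245 / 10000 := by
    refine norm_le_of (by norm_num) ?_
    simp [pnt10] <;> norm_num
  have e3 : ‖pnt10 (-2048, 0) - pnt10 (3072, 4608)‖ ≤ 67269 / 10000 := by
    refine norm_le_of (by norm_num) ?_
    simp [pnt10] <;> norm_num
  unfold l2
  simp only [Path_len]
  linarith

theorem len_bd : 2 * Path_len l1 + Path_len l2 / (2 * Real.pi) ≤ 22 / 3 := by
  have h1 := len1
  have h2 := len2
  have h3 : Path_len l2 / (2 * Real.pi) ≤ 2291 / 1000 := by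
    have hp := Real.pi_gt_d2
    rw [div_le_iff₀ (by positivity)]
    linarith
  linarith

end Vale.Agent.P021.H476
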