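import Vale.Agent.P021.H476.Rows
import Vale.Agent.P021.H476.Func
import Vale.Agent.P021.Eff.Spec

/-!
# P021: the Archimedean bound for `cert1` with explicit constants, for all `n`
-/

set_option linter.all false

open Polynomial

namespace Vale.Agent.P021.H476

open Vale.Agent.P021.Det

theorem le_exp_beta : (189 / 4 : ℝ) ≤ Real.exp (89 / 16 * Real.log 2) := by
  have h : (189 / 4 : ℝ) ^ 16 ≤ Real.exp (89 / 16 * Real.log 2) ^ 16 := by
    rw [← Real.exp_nat_mul, show ((16 : ℕ) : ℝ) * (89 / 16 * Real.log 2) =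
      ((89 : ℕ) : ℝ) * Real.log 2 by push_cast; ring, Real.exp_nat_mul,
      Real.exp_log (by norm_num)]
    norm_num
  exact le_of_pow_le_pow_left₀ (by norm_num) (Real.exp_nonneg _) h

theorem le_exp_gamma : (22 / 3 : ℝ) ≤ Real.exp (23 / 8 * Real.log 2) := by
  have h : (22 / 3 : ℝ) ^ 8 ≤ Real.exp (23 / 8 * Real.log 2) ^ 8 := by
    rw [← Real.exp_nat_mul, show ((8 : ℕ) : ℝ) * (23 / 8 * Real.log 2) =
      ((23 : ℕ) : ℝ) * Real.log 2 by push_cast; ring, Real.exp_nat_mul,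
      Real.exp_log (by norm_num)]
    norm_num
  exact le_of_pow_le_pow_left₀ (by norm_num) (Real.exp_nonneg _) h

/-- the bound for the functional at `π` -/
theorem Lam_bd (m : ℕ) (F : ℝ[X]) (M : ℝ) (hM : ∀ s ∈ S1, ‖ev F s‖ ≤ M * ‖tau s‖ ^ m) :
    |Lam Real.pi m F| ≤ (2 * Path_len l1) * M := by
  refine abs_Lam_le l1 0 ?_ ?_ ?_ S1 l1_path m F M hM
  · simp [l1, pnt10]
  · simp only [l1, List.getLast?_cons_cons, List.getLast?_singleton, Option.some.injEq]
    apply Complex.ext <;> simp [pnt10] <;> norm_num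
  · intro v hv
    simp only [l1, List.mem_cons, List.not_mem_nil, or_false] at hv
    rcases hv with h | h | h <;> rw [h] <;> simp [pnt10] <;> norm_num

/-- the bound for the other functional -/
theorem Bet_bd (m : ℕ) (F : ℝ[X]) (M : ℝ) (hM : ∀ s ∈ T1, ‖ev F s‖ ≤ M * ‖tau s‖ ^ m) :
    |Bet m F| ≤ (Path_len l2 / (2 * Real.pi)) * M := by
  refine abs_Bet_poly_le l2 (-2) (17 / 2) ?_ ?_ (by norm_num) (by norm_num) (by norm_num) T1
    l2_path ⟨?_, ?_, ?_, trivial⟩ m F M hM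
  · simp only [l2, List.head?_cons, Option.some.injEq]
    apply Complex.ext <;> simp [pnt10] <;> norm_num
  · simp only [l2, List.getLast?_cons_cons, List.getLast?_singleton, Option.some.injEq]
    apply Complex.ext <;> simp [pnt10] <;> norm_num
  · refine BT_seg ?_ ?_ ?_ ?_ (Or.inl ⟨?_, ?_⟩) <;> simp [pnt10] <;> norm_num
  · refine BT_seg ?_ ?_ ?_ ?_ (Or.inr (Or.inl ⟨?_, ?_⟩)) <;> simp [pnt10] <;> norm_num
  · refine BT_seg ?_ ?_ ?_ ?_ (Or.inr (Or.inr ⟨?_, ?_⟩)) <;> simp [pnt10] <;> norm_num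

theorem cert1_sum (n : ℝ) : ∑ j ∈ Finset.range 10,
        (((cert1.d (j + 1) : ℝ) - cert1.d j) *
          (cert1.L j * (n * (n + 1) / 2) + cert1.L (j + 1) * (n * (n - 1) / 2)) +
          n * (89 / 16 * Real.log 2 * (((cert1.d (j + 1) : ℝ) - cert1.d j) *
            (((cert1.d (j + 1) : ℝ) - cert1.d j) - 1)))) =
      Real.log 2 * (-12587990 * n ^ 2 + 431965 * n) := by
  simp only [cert1, Finset.sum_range_succ, Finset.sum_range_zero, cdeg, clev, List.getD_cons_zero,
    List.getD_cons_succ, cu]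
  push_cast
  ring

theorem cert1_last : cert1.L 10 = -10609 * Real.log 2 := by
  simp only [cert1, clev, List.getD_cons_zero, List.getD_cons_succ, cu]
  push_cast
  ring

/-- **The Archimedean bound, all `n`.** -/
theorem arch_all (n κ : ℕ) (hκ : κ ≤ 2) (x : ℝ)
    (hx : |x - Real.pi| ≤ Real.exp (-(33109 * Real.log 2) * n)) :
    |(HM x (1200 * n) (2600 * n) (5200 * n) (1000 * n + κ)).det| ≤
      ((1000 * n + κ).factorial : ℝ) * Real.exp (Real.log 2 *
        (-12587990 * (n : ℝ) ^ 2 + (434840 - 10609 * κ) * n + 17)) := by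
  have hl2 : 0 < Real.log 2 := Real.log_pos (by norm_num)
  have h := det_le cert1 (89 / 16 * Real.log 2) (by positivity)
    (fun s hs => (tau_S1 s hs).trans le_exp_beta) (fun s hs => (tau_T1 s hs).trans le_exp_beta)
    (2 * Path_len l1) (Path_len l2 / (2 * Real.pi)) (23 / 8 * Real.log 2)
    (div_nonneg (Path_len_nonneg _) (by positivity)) (len_bd.trans le_exp_gamma)
    Lam_bd Bet_bd n κ x hx
  refine h.trans (mul_le_mul_of_nonneg_left (Real.exp_le_exp.2 ?_) (by positivity))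
  rw [cert1_sum, cert1_last]
  have hk : (κ : ℝ) ≤ 2 := by exact_mod_cast hκ
  have hk0 : (0 : ℝ) ≤ κ := Nat.cast_nonneg κ
  have e : 23 / 8 * Real.log 2 * ((1000 : ℕ) * n + κ) + (Real.log 2 *
      (-12587990 * (n : ℝ) ^ 2 + 431965 * n) + (κ * (-10609 * Real.log 2 * n) +
        89 / 16 * Real.log 2 * (κ * (κ - 1)))) =
      Real.log 2 * (-12587990 * (n : ℝ) ^ 2 + (434840 - 10609 * κ) * n +
        (23 / 8 * κ + 89 / 16 * (κ * (κ - 1)))) := by
    push_cast
    ring
  rw [e]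
  apply mul_le_mul_of_nonneg_left _ hl2.le
  have h5 : (κ : ℝ) * (κ - 1) ≤ 2 := by nlinarith
  linarith

/-- **The Archimedean bound, closed form, all `n ≥ 1`.** -/
theorem arch_lin (n κ : ℕ) (hn : 1 ≤ n) (hκ : κ ≤ 2) (x : ℝ)
    (hx : |x - Real.pi| ≤ Real.exp (-(33109 * Real.log 2) * n)) :
    |(HM x (1200 * n) (2600 * n) (5200 * n) (1000 * n + κ)).det| ≤
      Real.exp (-8725317 * (n : ℝ) ^ 2 + 311741 * n) := by
  have hn1 : (1 : ℝ) ≤ n := by exact_mod_cast hn
  have hn0 : (0 : ℝ) < n := by linarith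
  have hk : (κ : ℝ) ≤ 2 := by exact_mod_cast hκ
  have hk0 : (0 : ℝ) ≤ κ := Nat.cast_nonneg κ
  have hl2 : 0 < Real.log 2 := Real.log_pos (by norm_num)
  have hlo := Real.log_two_gt_d9
  have hhi := Real.log_two_lt_d9
  obtain ⟨K, hK⟩ : ∃ K : ℕ, K = 1000 * n + κ := ⟨_, rfl⟩
  have hKle : (K : ℝ) ≤ 1002 * n := by
    rw [hK]; push_cast; nlinarith
  have hKpos : (0 : ℝ) < (K : ℝ) := by
    rw [hK]; push_cast; positivity
  -- the logarithm of `K`
  have hlog : Real.log K ≤ 103 / 10 + n / 80 := by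
    have h1 : Real.log K ≤ Real.log (1002 * n) := Real.log_le_log hKpos hKle
    have h2 : Real.log (1002 * n) = Real.log 80160 + Real.log (n / 80) := by
      rw [← Real.log_mul (by norm_num) (by positivity)]
      congr 1
      ring
    have h3 : Real.log (n / 80) ≤ n / 80 - 1 := Real.log_le_sub_one_of_pos (by positivity)
    have h4 : Real.log 80160 ≤ 113 / 10 := by
      have h5 : (80160 : ℝ) ^ 10 ≤ 2 ^ 163 := by norm_num
      have h6 : Real.log ((80160 : ℝ) ^ 10) ≤ Real.log ((2 : ℝ) ^ 163) :=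
        Real.log_le_log (by norm_num) h5
      rw [Real.log_pow, Real.log_pow] at h6
      push_cast at h6
      linarith
    linarith
  have hlogn : 0 ≤ Real.log K := by
    apply Real.log_nonneg
    rw [hK]; push_cast; linarith
  have hfac : ((K.factorial : ℕ) : ℝ) ≤ Real.exp (1002 * n * (103 / 10 + n / 80)) := by
    have h1 : ((K.factorial : ℕ) : ℝ) ≤ (K : ℝ) ^ K := by
      exact_mod_cast Nat.factorial_le_pow K
    refine h1.trans ?_
    rw [← Real.rpow_natCast, Real.rpow_def_of_pos hKpos]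
    apply Real.exp_le_exp.2
    rw [mul_comm]
    exact mul_le_mul hKle hlog hlogn (by positivity)
  have h := arch_all n κ hκ x hx
  rw [← hK] at h ⊢
  refine h.trans ((mul_le_mul_of_nonneg_right hfac (Real.exp_nonneg _)).trans ?_)
  rw [← Real.exp_add]
  apply Real.exp_le_exp.2
  have h7 : Real.log 2 * (-12587990 * (n : ℝ) ^ 2 + (434840 - 10609 * κ) * n + 17) ≤
      -12587990 * Real.log 2 * (n : ℝ) ^ 2 + 434857 * Real.log 2 * n := by
    have i1 : 0 ≤ Real.log 2 * (10609 * κ * n) := by positivity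
    have i2 : Real.log 2 * 17 ≤ Real.log 2 * (17 * n) :=
      mul_le_mul_of_nonneg_left (by linarith) hl2.le
    linarith
  have h8 : -12587990 * Real.log 2 * (n : ℝ) ^ 2 ≤ -87253297 / 10 * (n : ℝ) ^ 2 :=
    mul_le_mul_of_nonneg_right (by linarith) (by positivity)
  have h9 : 434857 * Real.log 2 * n ≤ 301420 * n :=
    mul_le_mul_of_nonneg_right (by linarith) hn0.le
  nlinarith

/-- `n ≥ 80`, in the form asked for (stronger constant) -/
theorem arch80' (n κ : ℕ) (hn : 80 ≤ n) (hκ : κ ≤ 2) (x : ℝ)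
    (hx : |x - Real.pi| ≤ Real.exp (-(33109 * Real.log 2) * n)) :
    |(HM x (1200 * n) (2600 * n) (5200 * n) (1000 * n + κ)).det| ≤
      Real.exp (-8721420 * (n : ℝ) ^ 2) := by
  refine (arch_lin n κ (by omega) hκ x hx).trans (Real.exp_le_exp.2 ?_)
  have hn1 : (80 : ℝ) ≤ n := by exact_mod_cast hn
  nlinarith

/-- `n ≥ 80`, literal form of row (D) -/
theorem arch80 (n κ : ℕ) (hn : 80 ≤ n) (hκ : κ ≤ 2) (x : ℝ)
    (hx : |x - Real.pi| ≤ Real.exp (-(33109 * Real.log 2) * n)) :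
    |(HM x (1200 * n) (2600 * n) (5200 * n) (1000 * n + κ)).det| ≤
      Real.exp (-8705000 * (n : ℝ) ^ 2) := by
  refine (arch80' n κ hn hκ x hx).trans (Real.exp_le_exp.2 ?_)
  nlinarith [sq_nonneg (n : ℝ)]

theorem rowD : Vale.Agent.P021.Eff.RowD := by
  intro n κ hn hκ x hx
  have h := arch80 n κ hn hκ x hx
  rwa [neg_mul] at h

end Vale.Agent.P021.H476
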