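import Vale.Agent.P030.H476.Log
import Vale.Agent.P021.Eff.Data
import Vale.Agent.P021.Eff.Data2

/-!
# P021: the main constants of the Chebyshev schemes

`sumLog l = Σ m log d` over a list of pairs `(d, m)`, enclosed by kernel computation.
-/

namespace Vale.Agent.P021.H476

open Vale.Agent.P030.H476

/-- `Σ m log d` -/
noncomputable def sumLog (l : List (ℕ × ℤ)) : ℝ := (l.map fun p => (p.2 : ℝ) * Real.log p.1).sum

/-- lower term -/
def loT (p : ℕ × ℤ) : ℤ :=
  if 0 ≤ p.2 then p.2 * (lgN p.1 : ℤ) else p.2 * ((lgN p.1 + Nat.log2 p.1 + 9 : ℕ) : ℤ)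

/-- upper term -/
def upT (p : ℕ × ℤ) : ℤ :=
  if 0 ≤ p.2 then p.2 * ((lgN p.1 + Nat.log2 p.1 + 9 : ℕ) : ℤ) else p.2 * (lgN p.1 : ℤ)

theorem loT_le (p : ℕ × ℤ) (h : p.1 ≠ 0) : (loT p : ℝ) ≤ 2 ^ 40 * ((p.2 : ℝ) * Real.log p.1) := by
  obtain ⟨h1, h2⟩ := lgN_bound p.1 h
  push_cast at h2
  unfold loT
  split_ifs with h0
  · have h3 : (0 : ℝ) ≤ p.2 := by exact_mod_cast h0
    push_cast
    nlinarith
  · have h3 : (p.2 : ℝ) ≤ 0 := by
      push Not at h0
      exact_mod_cast h0.le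
    push_cast
    nlinarith

theorem le_upT (p : ℕ × ℤ) (h : p.1 ≠ 0) : 2 ^ 40 * ((p.2 : ℝ) * Real.log p.1) ≤ (upT p : ℝ) := by
  obtain ⟨h1, h2⟩ := lgN_bound p.1 h
  push_cast at h2
  unfold upT
  split_ifs with h0
  · have h3 : (0 : ℝ) ≤ p.2 := by exact_mod_cast h0
    push_cast
    nlinarith
  · have h3 : (p.2 : ℝ) ≤ 0 := by
      push Not at h0
      exact_mod_cast h0.le
    push_cast
    nlinarith

theorem sumLog_ge (l : List (ℕ × ℤ)) (h : ∀ p ∈ l, p.1 ≠ 0) :
    (((l.map loT).sum : ℤ) : ℝ) ≤ 2 ^ 40 * sumLog l := by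
  unfold sumLog
  induction l with
  | nil => simp
  | cons p l ih =>
    have h1 := loT_le p (h p List.mem_cons_self)
    have h2 := ih fun q hq => h q (List.mem_cons_of_mem _ hq)
    simp only [List.map_cons, List.sum_cons]
    push_cast
    push_cast at h2
    linarith

theorem sumLog_le (l : List (ℕ × ℤ)) (h : ∀ p ∈ l, p.1 ≠ 0) :
    2 ^ 40 * sumLog l ≤ (((l.map upT).sum : ℤ) : ℝ) := by
  unfold sumLog
  induction l with
  | nil => simp
  | cons p l ih =>
    have h1 := le_upT p (h p List.mem_cons_self)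
    have h2 := ih fun q hq => h q (List.mem_cons_of_mem _ hq)
    simp only [List.map_cons, List.sum_cons]
    push_cast
    push_cast at h2
    linarith

/-- the check: `A ≤ 100 Σ m log d ≤ B` -/
def chkLog (l : List (ℕ × ℤ)) (A B : ℤ) : Bool :=
  l.all (fun p => p.1 != 0) && decide (A * 1099511627776 ≤ 100 * (l.map loT).sum) &&
    decide (100 * (l.map upT).sum ≤ B * 1099511627776)

theorem of_chkLog {l : List (ℕ × ℤ)} {A B : ℤ} (h : chkLog l A B = true) :
    (A : ℝ) / 100 ≤ sumLog l ∧ sumLog l ≤ (B : ℝ) / 100 := by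
  unfold chkLog at h
  simp only [Bool.and_eq_true, List.all_eq_true, decide_eq_true_eq] at h
  obtain ⟨⟨h1, h2⟩, h3⟩ := h
  have h0 : ∀ p ∈ l, p.1 ≠ 0 := fun p hp => by simpa using h1 p hp
  have h4 := sumLog_ge l h0
  have h5 := sumLog_le l h0
  have h6 : (A : ℝ) * 1099511627776 ≤ 100 * (((l.map loT).sum : ℤ) : ℝ) := by exact_mod_cast h2
  have h7 : 100 * (((l.map upT).sum : ℤ) : ℝ) ≤ (B : ℝ) * 1099511627776 := by exact_mod_cast h3
  constructor
  · rw [div_le_iff₀ (by norm_num)]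
    nlinarith
  · rw [le_div_iff₀ (by norm_num)]
    nlinarith

open Vale.Agent.P021.Eff

theorem sumLog_mUp : (-102345768 : ℝ) / 100 ≤ sumLog mUp ∧ sumLog mUp ≤ (-102345766 : ℝ) / 100 := by
  have h := of_chkLog (l := mUp) (A := -102345768) (B := -102345766) (by decide +kernel)
  exact_mod_cast h

theorem sumLog_mLo : (-100800645 : ℝ) / 100 ≤ sumLog mLo ∧ sumLog mLo ≤ (-100800643 : ℝ) / 100 := by
  have h := of_chkLog (l := mLo) (A := -100800645) (B := -100800643) (by decide +kernel)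
  exact_mod_cast h

theorem sumLog_mUp2 :
    (-10390995862 : ℝ) / 100 ≤ sumLog mUp2 ∧ sumLog mUp2 ≤ (-10390995859 : ℝ) / 100 := by
  have h := of_chkLog (l := mUp2) (A := -10390995862) (B := -10390995859) (by decide +kernel)
  exact_mod_cast h

theorem sumLog_mLo2 :
    (-10678604981 : ℝ) / 100 ≤ sumLog mLo2 ∧ sumLog mLo2 ≤ (-10678604978 : ℝ) / 100 := by
  have h := of_chkLog (l := mLo2) (A := -10678604981) (B := -10678604978) (by decide +kernel)
  exact_mod_cast h

end Vale.Agent.P021.H476
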