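import Vale.Agent.P021.H476.KInst2
import Vale.Agent.P021.H159.Check

/-!
# P021: the two pointwise checks of version 2, in the form of `H159.rowA2_of_base`
-/

namespace Vale.Agent.P021.H476

open Vale.Agent.P021.Eff Vale.Agent.P021.H159

theorem W_eq (m b : List (ℕ × ℤ)) (y : ℕ) : W m b y = evA (scale m) y + evB b y := by
  unfold W evA evB scale
  rw [List.map_map]
  rfl

theorem up_point2 (y : ℕ) (hy : 1 ≤ y) : nUp2 ≤ evA (scale mUp2) y + evB bUp2 y := by
  rw [← W_eq]
  exact W_up2 y hy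

theorem lo_point2 (y : ℕ) (hy : 1 ≤ y) : evA (scale mLo2) y + evB bLo2 y ≤ nLo2 := by
  rw [← W_eq]
  exact W_lo2 y hy

end Vale.Agent.P021.H476
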