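import Vale.Agent.P021.MathlibUsed

/-!
# P021: the combinatorial check of a Chebyshev scheme, with packed numbers

`W m b k = Σ d m (k / d) + Σ_(j ≤ k) b`.  `W_ge`: if the Boolean check `chkW` holds then `N ≤ W m b k`
for all `k ≥ 1`.  All values of `W` up to a bound are the digits of one large number.
-/

namespace Vale.Agent.P021.H476

open Finset

/-- the step function of a scheme -/
def W (m b : List (ℕ × ℤ)) (k : ℕ) : ℤ :=
  (m.map fun p => (p.1 : ℤ) * p.2 * ((k / p.1 : ℕ) : ℤ)).sum +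
    (b.map fun p => if p.1 ≤ k then p.2 else 0).sum

theorem W_zero (m b : List (ℕ × ℤ)) (hb : ∀ p ∈ b, 0 < p.1) : W m b 0 = 0 := by
  unfold W
  have h1 : (m.map fun p => (p.1 : ℤ) * p.2 * ((0 / p.1 : ℕ) : ℤ)).sum = 0 := by
    induction m with
    | nil => rfl
    | cons p m ih => simp only [List.map_cons, List.sum_cons, Nat.zero_div] at ih ⊢; simp
  have h2 : (b.map fun p => if p.1 ≤ 0 then p.2 else 0).sum = 0 := by
    induction b with
    | nil => rfl
    | cons p b ih =>
      have h := hb p List.mem_cons_self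
      simp only [List.map_cons, List.sum_cons, ih fun q hq => hb q (List.mem_cons_of_mem _ hq)]
      rw [if_neg (by omega)]
      rfl
  rw [h1, h2]; rfl

/-! ### Geometric sums over the multiples of `d` -/

/-- `Σ_(1 ≤ k ≤ K, d ∣ k) X ^ k` -/
def geoS (X : ℤ) (d K : ℕ) : ℤ := ∑ k ∈ range K, if d ∣ k + 1 then X ^ (k + 1) else 0

theorem geoS_mul (X : ℤ) (d K : ℕ) (hd : 0 < d) :
    (X ^ d - 1) * geoS X d K = X ^ (d * (K / d + 1)) - X ^ d := by
  induction K with
  | zero => simp [geoS]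
  | succ K ih =>
    have h1 : geoS X d (K + 1) = geoS X d K + if d ∣ K + 1 then X ^ (K + 1) else 0 := by
      unfold geoS
      rw [Finset.sum_range_succ]
    rw [h1, mul_add, ih, Nat.succ_div]
    split_ifs with h
    · obtain ⟨c, hc⟩ := h
      have h2 : K / d + 1 = c := by
        have h3 : (K + 1) / d = K / d + 1 := by rw [Nat.succ_div, if_pos ⟨c, hc⟩]
        rw [← h3, hc, Nat.mul_div_cancel_left _ hd]
      rw [h2, hc, mul_add d c 1, mul_one, pow_add]
      ring
    · rw [mul_zero, add_zero, add_zero]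

/-- the kernel form -/
def geoZ (B d K : ℕ) : ℤ :=
  (2 ^ (B * (d * (K / d + 1))) - 2 ^ (B * d)) / (2 ^ (B * d) - 1)

theorem geoZ_eq (B d K : ℕ) (hB : 0 < B) (hd : 0 < d) : geoZ B d K = geoS (2 ^ B) d K := by
  have h := geoS_mul (2 ^ B) d K hd
  rw [← pow_mul, ← pow_mul] at h
  unfold geoZ
  rw [← h]
  apply Int.mul_ediv_cancel_left
  have h1 : (1 : ℤ) < 2 ^ (B * d) := one_lt_pow₀ (by norm_num) (by positivity)
  omega

/-! ### Telescoping -/

theorem tele (X : ℤ) (f : ℕ → ℤ) (K : ℕ) :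
    (X - 1) * ∑ k ∈ range (K + 1), f k * X ^ k =
      f K * X ^ (K + 1) - (f 0 + ∑ k ∈ range K, (f (k + 1) - f k) * X ^ (k + 1)) := by
  induction K with
  | zero => simp; ring
  | succ K ih =>
    rw [Finset.sum_range_succ, mul_add, ih, Finset.sum_range_succ]
    ring

/-- the packed increments of the first part -/
theorem inc_m (X : ℤ) (m : List (ℕ × ℤ)) (K : ℕ) :
    ∑ k ∈ range K, ((m.map fun p => (p.1 : ℤ) * p.2 * (((k + 1) / p.1 : ℕ) : ℤ)).sum -
      (m.map fun p => (p.1 : ℤ) * p.2 * ((k / p.1 : ℕ) : ℤ)).sum) * X ^ (k + 1) =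
      (m.map fun p => (p.1 : ℤ) * p.2 * geoS X p.1 K).sum := by
  induction m with
  | nil => simp
  | cons p m ih =>
    simp only [List.map_cons, List.sum_cons]
    rw [← ih]
    unfold geoS
    rw [Finset.mul_sum, ← Finset.sum_add_distrib]
    refine Finset.sum_congr rfl fun k _ => ?_
    rw [Nat.succ_div]
    split_ifs with h
    · push_cast; ring
    · push_cast; ring

/-- the packed increments of the second part -/
theorem inc_b (X : ℤ) (b : List (ℕ × ℤ)) (hb : ∀ p ∈ b, 0 < p.1) (K : ℕ) :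
    ∑ k ∈ range K, ((b.map fun p => if p.1 ≤ k + 1 then p.2 else 0).sum -
      (b.map fun p => if p.1 ≤ k then p.2 else 0).sum) * X ^ (k + 1) =
      (b.map fun p => if p.1 ≤ K then p.2 * X ^ p.1 else 0).sum := by
  induction b with
  | nil => simp
  | cons p b ih =>
    have hp := hb p List.mem_cons_self
    simp only [List.map_cons, List.sum_cons]
    rw [← ih fun q hq => hb q (List.mem_cons_of_mem _ hq)]
    have h1 : ∑ k ∈ range K, (((if p.1 ≤ k + 1 then p.2 else 0) -
        (if p.1 ≤ k then p.2 else 0)) * X ^ (k + 1)) = if p.1 ≤ K then p.2 * X ^ p.1 else 0 := by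
      clear ih
      induction K with
      | zero =>
        rw [if_neg (by omega)]
        rfl
      | succ K ih =>
        rw [Finset.sum_range_succ, ih]
        by_cases h : p.1 ≤ K
        · have h2 : p.1 ≤ K + 1 := by omega
          simp only [if_pos h, if_pos h2]
          ring
        · by_cases h2 : p.1 ≤ K + 1
          · simp only [if_neg h, if_pos h2]
            have h3 : p.1 = K + 1 := by omega
            rw [h3]
            ring
          · simp only [if_neg h, if_neg h2]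
            ring
    rw [← h1, ← Finset.sum_add_distrib]
    refine Finset.sum_congr rfl fun k _ => ?_
    ring

/-- the packed increments -/
def qZ (B K : ℕ) (m b : List (ℕ × ℤ)) : ℤ :=
  (m.map fun p => (p.1 : ℤ) * p.2 * geoZ B p.1 K).sum +
    (b.map fun p => if p.1 ≤ K then p.2 * 2 ^ (B * p.1) else 0).sum

theorem qZ_eq (B K : ℕ) (hB : 0 < B) (m b : List (ℕ × ℤ)) (hm : ∀ p ∈ m, 0 < p.1)
    (hb : ∀ p ∈ b, 0 < p.1) :
    qZ B K m b = ∑ k ∈ range K, (W m b (k + 1) - W m b k) * (2 ^ B) ^ (k + 1) := by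
  have h1 := inc_m (2 ^ B) m K
  have h2 := inc_b (2 ^ B) b hb K
  unfold qZ W
  have h3 : (m.map fun p => (p.1 : ℤ) * p.2 * geoZ B p.1 K) =
      m.map fun p => (p.1 : ℤ) * p.2 * geoS (2 ^ B) p.1 K := by
    apply List.map_congr_left
    intro p hp
    rw [geoZ_eq B p.1 K hB (hm p hp)]
  have h4 : (b.map fun p => if p.1 ≤ K then p.2 * (2 : ℤ) ^ (B * p.1) else 0) =
      b.map fun p => if p.1 ≤ K then p.2 * ((2 : ℤ) ^ B) ^ p.1 else 0 := by
    apply List.map_congr_left
    intro p _
    rw [pow_mul]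
  rw [h3, h4, ← h1, ← h2, ← Finset.sum_add_distrib]
  refine Finset.sum_congr rfl fun k _ => ?_
  ring

/-! ### Digits -/

theorem pack_lt (B : ℕ) (f : ℕ → ℕ) (K : ℕ) (hf : ∀ k < K, f k < 2 ^ B) :
    ∑ k ∈ range K, f k * (2 ^ B) ^ k < (2 ^ B) ^ K := by
  induction K with
  | zero => simp
  | succ K ih =>
    rw [Finset.sum_range_succ, pow_succ]
    have h1 := ih fun k hk => hf k (by omega)
    have h2 := hf K (by omega)
    have h3 : f K * (2 ^ B) ^ K + (2 ^ B) ^ K ≤ (2 ^ B) ^ K * 2 ^ B := by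
      have : (f K + 1) * (2 ^ B) ^ K ≤ 2 ^ B * (2 ^ B) ^ K := Nat.mul_le_mul_right _ h2
      nlinarith
    omega

theorem testBit_pack (B : ℕ) (f : ℕ → ℕ) (K : ℕ) (hf : ∀ k < K, f k < 2 ^ B) (k i : ℕ)
    (hk : k < K) (hi : i < B) :
    (∑ k ∈ range K, f k * (2 ^ B) ^ k).testBit (B * k + i) = (f k).testBit i := by
  induction K with
  | zero => omega
  | succ K ih =>
    have h1 := pack_lt B f K fun k hk => hf k (by omega)
    rw [← pow_mul] at h1
    rw [Finset.sum_range_succ, add_comm, mul_comm (f K), ← pow_mul,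
      Nat.testBit_two_pow_mul_add _ h1]
    by_cases h : k = K
    · subst h
      rw [if_neg (by omega)]
      congr 1
      omega
    · have hkK : k < K := by omega
      have h2 : B * k + i < B * K := by
        have : B * (k + 1) ≤ B * K := Nat.mul_le_mul_left _ (by omega)
        rw [mul_add, mul_one] at this
        omega
      rw [if_pos h2]
      exact ih (fun k hk => hf k (by omega)) hkK

/-! ### The check -/

/-- sum of the absolute values -/
def absS (l : List (ℕ × ℤ)) : ℤ := (l.map fun p => |p.2|).sum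

theorem abs_W_le (m b : List (ℕ × ℤ)) (k : ℕ) : |W m b k| ≤ k * absS m + absS b := by
  have h1 : |(m.map fun p => (p.1 : ℤ) * p.2 * ((k / p.1 : ℕ) : ℤ)).sum| ≤ k * absS m := by
    unfold absS
    induction m with
    | nil => simp
    | cons p m ih =>
      simp only [List.map_cons, List.sum_cons]
      refine (abs_add_le _ _).trans ?_
      rw [mul_add]
      refine add_le_add ?_ ih
      rw [abs_mul, abs_mul, Nat.abs_cast, Nat.abs_cast]
      have h2 : ((p.1 : ℤ)) * ((k / p.1 : ℕ) : ℤ) ≤ k := by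
        exact_mod_cast Nat.mul_div_le k p.1
      have h3 := abs_nonneg p.2
      nlinarith
  have h2 : |(b.map fun p => if p.1 ≤ k then p.2 else 0).sum| ≤ absS b := by
    unfold absS
    induction b with
    | nil => simp
    | cons p b ih =>
      simp only [List.map_cons, List.sum_cons]
      refine (abs_add_le _ _).trans (add_le_add ?_ ih)
      split_ifs
      · exact le_rfl
      · rw [abs_zero]; exact abs_nonneg _
  unfold W
  exact (abs_add_le _ _).trans (add_le_add h1 h2)

/-- the packed number -/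
def DZ (B K : ℕ) (N : ℤ) (m b : List (ℕ × ℤ)) : ℤ :=
  ((W m b K + 2 ^ (B - 1) - N) * 2 ^ (B * (K + 1)) - (2 ^ (B - 1) - N + qZ B K m b)) / (2 ^ B - 1)

/-- the check up to `K` -/
def chkB (B K : ℕ) (N : ℤ) (m b : List (ℕ × ℤ)) : Bool :=
  m.all (fun p => decide (0 < p.1)) && b.all (fun p => decide (0 < p.1)) &&
  decide (0 < B) && decide (K * absS m + absS b + |N| < 2 ^ (B - 1)) &&
  Nat.beq (Nat.land (DZ B K N m b).toNat (2 ^ (B - 1) * geoZ B 1 K).toNat)
    (2 ^ (B - 1) * geoZ B 1 K).toNat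

theorem of_chkB {B K : ℕ} {N : ℤ} {m b : List (ℕ × ℤ)} (h : chkB B K N m b = true) :
    ∀ k, 1 ≤ k → k ≤ K → N ≤ W m b k := by
  unfold chkB at h
  simp only [Bool.and_eq_true, List.all_eq_true, decide_eq_true_eq] at h
  obtain ⟨⟨⟨⟨hm, hb⟩, hB⟩, hN⟩, hl⟩ := h
  have hl' := Nat.eq_of_beq_eq_true hl
  have hX : (1 : ℤ) < 2 ^ B := one_lt_pow₀ (by norm_num) hB.ne'
  have hH : (2 : ℤ) ^ B = 2 * 2 ^ (B - 1) := by
    rw [← pow_succ', Nat.sub_add_cancel hB]
  -- the digits
  have hr : ∀ k, k ≤ K → 0 ≤ W m b k + 2 ^ (B - 1) - N ∧ W m b k + 2 ^ (B - 1) - N < 2 ^ B := by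
    intro k hk
    have h1 := abs_W_le m b k
    have h2 : (k : ℤ) * absS m ≤ K * absS m := by
      have h3 : 0 ≤ absS m := by
        unfold absS
        apply List.sum_nonneg
        intro x hx
        obtain ⟨p, -, rfl⟩ := List.mem_map.1 hx
        exact abs_nonneg _
      exact mul_le_mul_of_nonneg_right (by exact_mod_cast hk) h3
    have h4 := abs_le.1 (h1.trans (add_le_add_left h2 _))
    have h5 := abs_le.1 (le_refl |N|)
    rw [hH]
    constructor
    · linarith [h4.1, h5.2]
    · linarith [h4.2, h5.1]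
  set f : ℕ → ℤ := fun k => W m b k + 2 ^ (B - 1) - N with hf
  set g : ℕ → ℕ := fun k => (f k).toNat with hg
  have hgf : ∀ k, k ≤ K → ((g k : ℕ) : ℤ) = f k := fun k hk => Int.toNat_of_nonneg (hr k hk).1
  have hglt : ∀ k < K + 1, g k < 2 ^ B := by
    intro k hk
    have h1 := (hr k (by omega)).2
    have h2 := hgf k (by omega)
    have h3 : ((g k : ℕ) : ℤ) < ((2 ^ B : ℕ) : ℤ) := by
      rw [h2]; push_cast; exact h1
    exact_mod_cast h3
  -- the packed number
  have hD : DZ B K N m b = ((∑ k ∈ range (K + 1), g k * (2 ^ B) ^ k : ℕ) : ℤ) := by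
    have h1 := tele (2 ^ B) f K
    have h2 : ∑ k ∈ range K, (f (k + 1) - f k) * ((2 : ℤ) ^ B) ^ (k + 1) = qZ B K m b := by
      rw [qZ_eq B K hB m b hm hb]
      refine Finset.sum_congr rfl fun k _ => ?_
      rw [hf]
      ring
    have h3 : f 0 = 2 ^ (B - 1) - N := by
      show W m b 0 + 2 ^ (B - 1) - N = _
      rw [W_zero m b hb]; ring
    rw [h2, h3, ← pow_mul] at h1
    unfold DZ
    have h4 : (W m b K + 2 ^ (B - 1) - N) = f K := rfl
    rw [h4, ← h1, Int.mul_ediv_cancel_left _ (by omega)]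
    push_cast
    refine Finset.sum_congr rfl fun k hk => ?_
    rw [hgf k (by have := Finset.mem_range.1 hk; omega)]
  -- the mask
  have hM : (2 ^ (B - 1) * geoZ B 1 K) = ((∑ k ∈ range (K + 1),
      (if k = 0 then 0 else 2 ^ (B - 1)) * (2 ^ B) ^ k : ℕ) : ℤ) := by
    rw [geoZ_eq B 1 K hB one_pos]
    unfold geoS
    rw [Finset.mul_sum]
    push_cast
    rw [Finset.sum_range_succ']
    simp
  rw [hD, hM, Int.toNat_natCast, Int.toNat_natCast] at hl'
  intro k hk1 hkK
  -- the top bit
  have hi : B - 1 < B := by omega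
  have t1 := testBit_pack B g (K + 1) hglt k (B - 1) (by omega) hi
  have t2 := testBit_pack B (fun k => if k = 0 then 0 else 2 ^ (B - 1)) (K + 1) (by
    intro k _
    show (if k = 0 then 0 else 2 ^ (B - 1)) < 2 ^ B
    split_ifs
    · positivity
    · exact Nat.pow_lt_pow_right (by norm_num) hi) k (B - 1) (by omega) hi
  have t3 : ((if k = 0 then 0 else 2 ^ (B - 1) : ℕ)).testBit (B - 1) = true := by
    rw [if_neg (by omega)]
    exact Nat.testBit_two_pow_self
  rw [t3] at t2
  have t4 := congrArg (fun x : ℕ => x.testBit (B * k + (B - 1))) hl'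
  have t5 : ∀ x y : ℕ, (Nat.land x y) = x &&& y := fun _ _ => rfl
  simp only [t5, Nat.testBit_and] at t4
  rw [t1, t2, Bool.and_true] at t4
  have t6 : 2 ^ (B - 1) ≤ g k := Nat.ge_two_pow_of_testBit t4
  have t7 : ((2 ^ (B - 1) : ℕ) : ℤ) ≤ ((g k : ℕ) : ℤ) := by exact_mod_cast t6
  rw [hgf k hkK] at t7
  push_cast at t7
  have t8 : (2 : ℤ) ^ (B - 1) ≤ W m b k + 2 ^ (B - 1) - N := t7
  linarith

/-- the check of the tail -/
def chkT (K : ℕ) (N : ℤ) (m b : List (ℕ × ℤ)) : Bool :=
  m.all (fun p => decide (0 < p.1)) && b.all (fun p => decide (p.1 ≤ K + 1)) &&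
  decide ((m.map fun p => p.2).sum = 0) &&
  decide (N ≤ (b.map fun p => p.2).sum - (m.map fun p => max p.2 0 * ((p.1 : ℤ) - 1)).sum)

theorem of_chkT {K : ℕ} {N : ℤ} {m b : List (ℕ × ℤ)} (h : chkT K N m b = true) :
    ∀ k, K < k → N ≤ W m b k := by
  unfold chkT at h
  simp only [Bool.and_eq_true, List.all_eq_true, decide_eq_true_eq] at h
  obtain ⟨⟨⟨hm, hb⟩, hs⟩, hN⟩ := h
  intro k hk
  have h1 : (b.map fun p => if p.1 ≤ k then p.2 else 0) = b.map fun p => p.2 := by
    apply List.map_congr_left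
    intro p hp
    have := hb p hp
    rw [if_pos (by omega)]
  have h2 : k * (m.map fun p => p.2).sum - (m.map fun p => max p.2 0 * ((p.1 : ℤ) - 1)).sum ≤
      (m.map fun p => (p.1 : ℤ) * p.2 * ((k / p.1 : ℕ) : ℤ)).sum := by
    clear hs hN
    induction m with
    | nil => simp
    | cons p m ih =>
      have h3 := ih fun q hq => hm q (List.mem_cons_of_mem _ hq)
      have h4 : 0 < p.1 := hm p List.mem_cons_self
      simp only [List.map_cons, List.sum_cons]
      have h5 : (p.1 : ℤ) * ((k / p.1 : ℕ) : ℤ) = k - ((k % p.1 : ℕ) : ℤ) := by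
        have := Nat.div_add_mod k p.1
        have h6 : ((p.1 : ℤ)) * ((k / p.1 : ℕ) : ℤ) + ((k % p.1 : ℕ) : ℤ) = k := by
          exact_mod_cast this
        linarith
      have h7 : ((k % p.1 : ℕ) : ℤ) ≤ (p.1 : ℤ) - 1 := by
        have := Nat.mod_lt k h4
        omega
      have h8 : (0 : ℤ) ≤ ((k % p.1 : ℕ) : ℤ) := Nat.cast_nonneg _
      have h9 : p.2 * ((k % p.1 : ℕ) : ℤ) ≤ max p.2 0 * ((p.1 : ℤ) - 1) :=
        (mul_le_mul_of_nonneg_right (le_max_left _ _) h8).trans
          (mul_le_mul_of_nonneg_left h7 (le_max_right _ _))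
      have h10 : (p.1 : ℤ) * p.2 * ((k / p.1 : ℕ) : ℤ) = k * p.2 - p.2 * ((k % p.1 : ℕ) : ℤ) := by
        rw [mul_right_comm, h5]; ring
      rw [h10]
      linarith
  unfold W
  rw [h1]
  rw [hs, mul_zero] at h2
  linarith

/-- **the lower bound of `W` at all positive integers** -/
theorem W_ge {B K : ℕ} {N : ℤ} {m b : List (ℕ × ℤ)} (h : chkB B K N m b = true)
    (h' : chkT K N m b = true) : ∀ k, 1 ≤ k → N ≤ W m b k := by
  intro k hk
  by_cases hK : k ≤ K
  · exact of_chkB h k hk hK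
  · exact of_chkT h' k (by omega)

/-- the negative of a list -/
def neg (l : List (ℕ × ℤ)) : List (ℕ × ℤ) := l.map fun p => (p.1, -p.2)

theorem W_neg (m b : List (ℕ × ℤ)) (k : ℕ) : W (neg m) (neg b) k = -W m b k := by
  unfold W neg
  rw [neg_add]
  congr 1
  · induction m with
    | nil => rfl
    | cons p m ih =>
      simp only [List.map_cons, List.sum_cons, ih]
      ring
  · induction b with
    | nil => rfl
    | cons p b ih =>
      simp only [List.map_cons, List.sum_cons, ih]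
      split_ifs <;> ring

/-- **the upper bound of `W` at all positive integers** -/
theorem W_le {B K : ℕ} {N : ℤ} {m b : List (ℕ × ℤ)} (h : chkB B K (-N) (neg m) (neg b) = true)
    (h' : chkT K (-N) (neg m) (neg b) = true) : ∀ k, 1 ≤ k → W m b k ≤ N := by
  intro k hk
  have h1 := W_ge h h' k hk
  rw [W_neg] at h1
  linarith

end Vale.Agent.P021.H476
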