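import Vale.Agent.P021.H476.KChk
import Vale.Agent.P021.Eff.Data

/-!
# P021: the combinatorial check of the two schemes, version 1
-/

namespace Vale.Agent.P021.H476

open Vale.Agent.P021.Eff

theorem chkB_up : chkB 64 30000 nUp mUp bUp = true := by decide +kernel

theorem chkT_up : chkT 30000 nUp mUp bUp = true := by decide +kernel

theorem chkB_lo : chkB 64 30000 (-nLo) (neg mLo) (neg bLo) = true := by decide +kernel

theorem chkT_lo : chkT 30000 (-nLo) (neg mLo) (neg bLo) = true := by decide +kernel

/-- the upper scheme -/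
theorem W_up (k : ℕ) (hk : 1 ≤ k) : nUp ≤ W mUp bUp k := W_ge chkB_up chkT_up k hk

/-- the lower scheme -/
theorem W_lo (k : ℕ) (hk : 1 ≤ k) : W mLo bLo k ≤ nLo := W_le chkB_lo chkT_lo k hk

end Vale.Agent.P021.H476
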