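import Vale.Agent.P021.H476.KChk
import Vale.Agent.P021.Eff.Data2

/-!
# P021: the combinatorial check of the two schemes, version 2
-/

namespace Vale.Agent.P021.H476

open Vale.Agent.P021.Eff

theorem chkB_up2 : chkB 64 100000 nUp2 mUp2 bUp2 = true := by decide +kernel

theorem chkT_up2 : chkT 100000 nUp2 mUp2 bUp2 = true := by decide +kernel

theorem chkB_lo2 : chkB 64 100000 (-nLo2) (neg mLo2) (neg bLo2) = true := by decide +kernel

theorem chkT_lo2 : chkT 100000 (-nLo2) (neg mLo2) (neg bLo2) = true := by decide +kernel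

/-- the upper scheme -/
theorem W_up2 (k : ℕ) (hk : 1 ≤ k) : nUp2 ≤ W mUp2 bUp2 k := W_ge chkB_up2 chkT_up2 k hk

/-- the lower scheme -/
theorem W_lo2 (k : ℕ) (hk : 1 ≤ k) : W mLo2 bLo2 k ≤ nLo2 := W_le chkB_lo2 chkT_lo2 k hk

end Vale.Agent.P021.H476
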