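import Vale.Agent.P021.Bdl.B1

/-!
# P021: the row polynomials with an explicit constant

The block estimate of `Bdl.B1` with the filler `X ^ e` moved into the exponent of its own row.
-/

set_option linter.all false

open Polynomial

namespace Vale.Agent.P021.H476

open Vale.Agent.P021.Det

/-- moving the constant into the exponent -/
theorem good_shift {S T : Set ℂ} {w : ℝ} {a0 b0 m0 n i e : ℕ} {B β l : ℝ} {P : ℝ[X]}
    (hB : B = Real.exp β)
    (h : AU_Good S T w a0 b0 m0 (B ^ (2 * e)) n i P l) :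
    AU_Good S T w a0 b0 m0 1 n i P (l + 2 * β * e) := by
  have e1 : B ^ (2 * e) = Real.exp (2 * β * e) := by
    rw [hB, ← Real.exp_nat_mul]
    congr 1
    push_cast
    ring
  obtain ⟨h1, h2, h3, h4⟩ := h
  refine ⟨h1, h2, fun s hs => ?_, fun s hs => ?_⟩
  · refine (h3 s hs).trans (le_of_eq ?_)
    rw [e1, one_mul, Real.exp_add]
    ring
  · refine (h4 s hs).trans (le_of_eq ?_)
    rw [e1, one_mul, show l + 2 * β * e + w * n = (l + w * n) + 2 * β * e by ring,
      Real.exp_add (l + w * n)]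
    ring

theorem sum_mod (D n : ℕ) (f : ℕ → ℝ) :
    ∑ i ∈ Finset.range (D * n), f (i % D) = n * ∑ e ∈ Finset.range D, f e := by
  induction n with
  | zero => simp only [mul_zero, Finset.range_zero, Finset.sum_empty, Nat.cast_zero, zero_mul]
  | succ n ih =>
    rw [mul_add, mul_one, Finset.sum_range_add, ih]
    have h : ∑ t ∈ Finset.range D, f ((D * n + t) % D) = ∑ e ∈ Finset.range D, f e := by
      apply Finset.sum_congr rfl
      intro t ht
      have ht' := Finset.mem_range.1 ht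
      rw [Nat.mul_add_mod, Nat.mod_eq_of_lt ht']
    rw [h]
    push_cast
    ring

theorem sum_id (D : ℕ) (β : ℝ) :
    ∑ e ∈ Finset.range D, 2 * β * (e : ℝ) = β * (D * (D - 1)) := by
  induction D with
  | zero => simp
  | succ n ih => rw [Finset.sum_range_succ, ih]; push_cast; ring

/-- existence of all row polynomials, by blocks -/
theorem blocks {K0 a0 b0 m0 N : ℕ} {w : ℝ} {S T : Set ℂ}
    (C : Cert K0 a0 b0 m0 N w S T) (β : ℝ) (hβ : 0 ≤ β)
    (hBS : ∀ s ∈ S, ‖tau s‖ ≤ Real.exp β) (hBT : ∀ s ∈ T, ‖tau s‖ ≤ Real.exp β) (n : ℕ)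
    (J : ℕ) (hJ : J ≤ N) :
    ∃ (P : ℕ → ℝ[X]) (l : ℕ → ℝ),
      (∀ i < C.d J * n, AU_Good S T w a0 b0 m0 1 n i (P i) (l i)) ∧
      ∑ i ∈ Finset.range (C.d J * n), l i = ∑ j ∈ Finset.range J,
        (((C.d (j + 1) : ℝ) - C.d j) *
          (C.L j * (n * (n + 1) / 2) + C.L (j + 1) * (n * (n - 1) / 2)) +
          n * (β * (((C.d (j + 1) : ℝ) - C.d j) * (((C.d (j + 1) : ℝ) - C.d j) - 1)))) := by
  have hB : 1 ≤ Real.exp β := Real.one_le_exp hβ
  induction J with
  | zero =>
    refine ⟨fun _ => 0, fun _ => 0, ?_, ?_⟩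
    · intro i hi
      rw [C.d_zero, zero_mul] at hi
      omega
    · rw [C.d_zero]
      simp only [zero_mul, Finset.range_zero, Finset.sum_const_zero, Finset.sum_empty]
  | succ J ih =>
    obtain ⟨P, l, hP, hl⟩ := ih (by omega)
    have hlt : C.d J < C.d (J + 1) := C.d_lt J (by omega)
    set D : ℕ := C.d (J + 1) - C.d J with hDdef
    have hD : 0 < D := by omega
    have hsplit : C.d (J + 1) * n = C.d J * n + D * n := by
      rw [← add_mul]
      congr 1
      omega
    refine ⟨fun i => if i < C.d J * n then P i else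
        X ^ ((i - C.d J * n) % D) * C.F J ^ (n - (i - C.d J * n) / D) *
          C.F (J + 1) ^ ((i - C.d J * n) / D),
      fun i => if i < C.d J * n then l i else
        (C.L J * ((n - (i - C.d J * n) / D : ℕ) : ℝ) +
          C.L (J + 1) * (((i - C.d J * n) / D : ℕ) : ℝ)) +
          2 * β * (((i - C.d J * n) % D : ℕ) : ℝ), ?_, ?_⟩
    · intro i hi
      by_cases h : i < C.d J * n
      · simp only [h, if_true]
        exact hP i h
      · simp only [h, if_false]
        have hi2 : i - C.d J * n < D * n := by omega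
        have hr : (i - C.d J * n) / D < n := Nat.div_lt_of_lt_mul hi2
        have he : (i - C.d J * n) % D < D := Nat.mod_lt _ hD
        have hb := AU_block (S := S) (T := T) (w := w) a0 b0 m0 n ((i - C.d J * n) / D)
          ((i - C.d J * n) % D) ((i - C.d J * n) % D) hr.le le_rfl (Real.exp β)
          (C.L J) (C.L (J + 1)) hB hBS hBT
          (C.F J) (C.F (J + 1)) (C.monic J (by omega)) (C.monic (J + 1) hJ)
          (C.path J (by omega)) (C.circ J (by omega)) (C.path (J + 1) hJ) (C.circ (J + 1) hJ)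
        have e1 : (i - C.d J * n) % D + (C.F J).natDegree * (n - (i - C.d J * n) / D) +
            (C.F (J + 1)).natDegree * ((i - C.d J * n) / D) = i := by
          rw [C.deg J (by omega), C.deg (J + 1) hJ]
          have h3 : C.d (J + 1) = C.d J + D := by omega
          rw [h3]
          have h4 := Nat.mod_add_div (i - C.d J * n) D
          have h5 : C.d J * (n - (i - C.d J * n) / D) + C.d J * ((i - C.d J * n) / D) =
              C.d J * n := by
            rw [← mul_add, Nat.sub_add_cancel hr.le]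
          rw [add_mul]
          (clear * - h h4 h5; omega)
        rw [e1] at hb
        exact good_shift rfl hb
    · rw [hsplit, Finset.sum_range_add, Finset.sum_range_succ, ← hl]
      congr 1
      · apply Finset.sum_congr rfl
        intro i hi
        rw [if_pos (Finset.mem_range.1 hi)]
      · have h6 : ∀ t ∈ Finset.range (D * n),
            (if C.d J * n + t < C.d J * n then l (C.d J * n + t) else
              (C.L J * ((n - (C.d J * n + t - C.d J * n) / D : ℕ) : ℝ) +
              C.L (J + 1) * (((C.d J * n + t - C.d J * n) / D : ℕ) : ℝ)) +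
              2 * β * (((C.d J * n + t - C.d J * n) % D : ℕ) : ℝ)) =
            (fun r : ℕ => C.L J * ((n - r : ℕ) : ℝ) + C.L (J + 1) * (r : ℝ)) (t / D) +
              (fun e : ℕ => 2 * β * (e : ℝ)) (t % D) := by
          intro t _
          rw [if_neg (by omega), Nat.add_sub_cancel_left]
        rw [Finset.sum_congr rfl h6, Finset.sum_add_distrib, AU_sum_div D n hD
          (fun r : ℕ => C.L J * ((n - r : ℕ) : ℝ) + C.L (J + 1) * (r : ℝ)), AU_sum_lin,
          sum_mod D n (fun e : ℕ => 2 * β * (e : ℝ)), sum_id]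
        rw [hDdef, Nat.cast_sub hlt.le]

/-- all row polynomials -/
theorem rows {K0 a0 b0 m0 N : ℕ} {w : ℝ} {S T : Set ℂ}
    (C : Cert K0 a0 b0 m0 N w S T) (β : ℝ) (hβ : 0 ≤ β)
    (hBS : ∀ s ∈ S, ‖tau s‖ ≤ Real.exp β) (hBT : ∀ s ∈ T, ‖tau s‖ ≤ Real.exp β) (n κ : ℕ) :
    ∃ (P : ℕ → ℝ[X]) (l : ℕ → ℝ),
      (∀ i < K0 * n + κ, AU_Good S T w a0 b0 m0 1 n i (P i) (l i)) ∧
      ∑ i ∈ Finset.range (K0 * n + κ), l i = ∑ j ∈ Finset.range N,
        (((C.d (j + 1) : ℝ) - C.d j) *
          (C.L j * (n * (n + 1) / 2) + C.L (j + 1) * (n * (n - 1) / 2)) +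
          n * (β * (((C.d (j + 1) : ℝ) - C.d j) * (((C.d (j + 1) : ℝ) - C.d j) - 1)))) +
        (κ * (C.L N * n) + β * (κ * (κ - 1))) := by
  have hB : 1 ≤ Real.exp β := Real.one_le_exp hβ
  obtain ⟨P, l, hP, hl⟩ := blocks C β hβ hBS hBT n N le_rfl
  rw [C.d_last] at hP hl
  refine ⟨fun i => if i < K0 * n then P i else X ^ (i - K0 * n) * C.F N ^ (n - 0) * C.F N ^ 0,
    fun i => if i < K0 * n then l i else (C.L N * ((n - 0 : ℕ) : ℝ) + C.L N * ((0 : ℕ) : ℝ)) +
      2 * β * ((i - K0 * n : ℕ) : ℝ),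
    ?_, ?_⟩
  · intro i hi
    by_cases h : i < K0 * n
    · simp only [h, if_true]
      exact hP i h
    · simp only [h, if_false]
      have hb := AU_block (S := S) (T := T) (w := w) a0 b0 m0 n 0 (i - K0 * n) (i - K0 * n)
        (Nat.zero_le _) le_rfl (Real.exp β) (C.L N) (C.L N) hB hBS hBT
        (C.F N) (C.F N) (C.monic N le_rfl) (C.monic N le_rfl)
        (C.path N le_rfl) (C.circ N le_rfl) (C.path N le_rfl) (C.circ N le_rfl)
      have e1 : (i - K0 * n) + (C.F N).natDegree * (n - 0) + (C.F N).natDegree * 0 = i := by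
        rw [C.deg N le_rfl, C.d_last, mul_zero, add_zero, Nat.sub_zero]
        omega
      rw [e1] at hb
      exact good_shift rfl hb
  · rw [Finset.sum_range_add, ← hl]
    congr 1
    · apply Finset.sum_congr rfl
      intro i hi
      rw [if_pos (Finset.mem_range.1 hi)]
    · rw [Finset.sum_congr rfl (g := fun t : ℕ => C.L N * n + 2 * β * (t : ℝ)),
        Finset.sum_add_distrib, Finset.sum_const, Finset.card_range, nsmul_eq_mul, sum_id]
      intro t _
      rw [if_neg (by omega), Nat.sub_zero, Nat.add_sub_cancel_left]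
      simp

/-- the determinant bound, with the constants of the functionals -/
theorem det_le {K0 a0 b0 m0 N : ℕ} {w : ℝ} {S T : Set ℂ}
    (C : Cert K0 a0 b0 m0 N w S T) (β : ℝ) (hβ : 0 ≤ β)
    (hBS : ∀ s ∈ S, ‖tau s‖ ≤ Real.exp β) (hBT : ∀ s ∈ T, ‖tau s‖ ≤ Real.exp β)
    (cL cB γ : ℝ) (hcB : 0 ≤ cB) (hγ : cL + cB ≤ Real.exp γ)
    (hLam : ∀ (m : ℕ) (F : ℝ[X]) (M : ℝ),
      (∀ s ∈ S, ‖ev F s‖ ≤ M * ‖tau s‖ ^ m) → |Lam Real.pi m F| ≤ cL * M)
    (hBet : ∀ (m : ℕ) (F : ℝ[X]) (M : ℝ),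
      (∀ s ∈ T, ‖ev F s‖ ≤ M * ‖tau s‖ ^ m) → |Bet m F| ≤ cB * M)
    (n κ : ℕ) (x : ℝ) (hx : |x - Real.pi| ≤ Real.exp (-w * n)) :
    |(HM x (a0 * n) (b0 * n) (m0 * n) (K0 * n + κ)).det| ≤
      ((K0 * n + κ).factorial : ℝ) * Real.exp (γ * (K0 * n + κ) + (∑ j ∈ Finset.range N,
        (((C.d (j + 1) : ℝ) - C.d j) *
          (C.L j * (n * (n + 1) / 2) + C.L (j + 1) * (n * (n - 1) / 2)) +
          n * (β * (((C.d (j + 1) : ℝ) - C.d j) * (((C.d (j + 1) : ℝ) - C.d j) - 1)))) +
        (κ * (C.L N * n) + β * (κ * (κ - 1))))) := by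
  obtain ⟨P, l, hP, hl⟩ := rows C β hβ hBS hBT n κ
  refine (AU_detrows S T w cL cB 1 (Real.exp γ) a0 b0 m0 n zero_le_one hcB (by linarith)
    (Real.exp_nonneg _) hLam hBet det_HM_monic (fun A u => abs_det_le_of_entries A u)
    (K0 * n + κ) P l hP x hx).trans (le_of_eq ?_)
  rw [hl, ← Real.exp_nat_mul, Real.exp_add (γ * (K0 * n + κ))]
  congr 3
  push_cast
  ring

end Vale.Agent.P021.H476
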